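import Mathlib

namespace Vale.Agent.Results.P125.A_ContainsL1Uniformly

open Finset

/-- Markov type `p` of a normed space `X` (Ball): there is a constant `K` such that for every
stationary reversible Markov chain on a finite state space `S` (stationary distribution `π`,
transition matrix `P` with `π i * P i j = π j * P j i`), every map `f : S → X` and every time
`t ≥ 1`, the expectation of `‖f (Z_t) - f (Z_0)‖ ^ p` is at most `K ^ p * t` times the
expectation of `‖f (Z_1) - f (Z_0)‖ ^ p`. The expectations are written out as finite sums: the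
pair `(Z_0, Z_t)` takes the value `(i, j)` with probability `π i * (P ^ t) i j`. -/
def HasMarkovType (X : Type*) [NormedAddCommGroup X] (p : ℝ) : Prop :=
  ∃ K : ℝ, 0 ≤ K ∧ ∀ (S : Type) [Fintype S] [DecidableEq S] (π : S → ℝ) (P : Matrix S S ℝ),
    (∀ i, 0 ≤ π i) → ∑ i, π i = 1 → (∀ i j, 0 ≤ P i j) → (∀ i, ∑ j, P i j = 1) →
    (∀ i j, π i * P i j = π j * P j i) →
    ∀ (f : S → X) (t : ℕ), 1 ≤ t →
      ∑ i, ∑ j, π i * (P ^ t) i j * ‖f j - f i‖ ^ p
        ≤ K ^ p * (t : ℝ) * ∑ i, ∑ j, π i * P i j * ‖f j - f i‖ ^ p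

section cube
variable {n : ℕ}

/-- change the coordinate `c` of a point of the discrete cube -/
def flipAt (k : Fin n → Bool) (c : Fin n) : Fin n → Bool := Function.update k c (!k c)

/-- the Hamming distance on the discrete cube, as a real number -/
noncomputable def ham (i j : Fin n → Bool) : ℝ := ∑ c, if i c ≠ j c then (1 : ℝ) else 0

/-- the transition matrix of the simple random walk on the discrete cube -/
noncomputable def walk (n : ℕ) : Matrix (Fin n → Bool) (Fin n → Bool) ℝ :=
  fun i j => (1 / (n : ℝ)) * ∑ c, if j = flipAt i c then (1 : ℝ) else 0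

theorem flipAt_flipAt (k : Fin n → Bool) (c : Fin n) : flipAt (flipAt k c) c = k := by
  unfold flipAt
  simp

theorem eq_flipAt_comm (i j : Fin n → Bool) (c : Fin n) : j = flipAt i c ↔ i = flipAt j c := by
  constructor
  · intro h
    rw [h, flipAt_flipAt]
  · intro h
    rw [h, flipAt_flipAt]

theorem ham_nonneg (i j : Fin n → Bool) : 0 ≤ ham i j := by
  unfold ham
  apply sum_nonneg
  intro c _
  split_ifs <;> norm_num

theorem ham_self (i : Fin n → Bool) : ham i i = 0 := by
  simp [ham]

theorem walk_nonneg (i j : Fin n → Bool) : 0 ≤ walk n i j := by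
  unfold walk
  apply mul_nonneg
  · positivity
  · apply sum_nonneg
    intro c _
    split_ifs <;> norm_num

theorem walk_symm (i j : Fin n → Bool) : walk n i j = walk n j i := by
  unfold walk
  congr 1
  apply sum_congr rfl
  intro c _
  exact if_congr (eq_flipAt_comm i j c) rfl rfl

/-- averaging a function against one step of the walk -/
theorem walk_sum (g : (Fin n → Bool) → ℝ) (k : Fin n → Bool) :
    ∑ j, walk n k j * g j = (1 / (n : ℝ)) * ∑ c, g (flipAt k c) := by
  calc ∑ j, walk n k j * g j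
      = ∑ j, ∑ c, (1 / (n : ℝ)) * (if j = flipAt k c then g j else 0) := by
        apply sum_congr rfl
        intro j _
        unfold walk
        rw [mul_assoc, sum_mul, mul_sum]
        apply sum_congr rfl
        intro c _
        split_ifs <;> simp
    _ = ∑ c, ∑ j, (1 / (n : ℝ)) * (if j = flipAt k c then g j else 0) := sum_comm
    _ = ∑ c, (1 / (n : ℝ)) * g (flipAt k c) := by
        apply sum_congr rfl
        intro c _
        rw [← mul_sum, sum_ite_eq']
        simp
    _ = (1 / (n : ℝ)) * ∑ c, g (flipAt k c) := by rw [mul_sum]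

theorem ham_flipAt (i k : Fin n → Bool) (c : Fin n) :
    ham i (flipAt k c) = ham i k + (if i c = k c then (1 : ℝ) else -1) := by
  unfold ham
  rw [← add_sum_erase univ (fun c' => if i c' ≠ flipAt k c c' then (1 : ℝ) else 0) (mem_univ c),
    ← add_sum_erase univ (fun c' => if i c' ≠ k c' then (1 : ℝ) else 0) (mem_univ c)]
  have h1 : ∑ c' ∈ univ.erase c, (if i c' ≠ flipAt k c c' then (1 : ℝ) else 0)
      = ∑ c' ∈ univ.erase c, (if i c' ≠ k c' then (1 : ℝ) else 0) := by
    apply sum_congr rfl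
    intro c' hc'
    have hne : c' ≠ c := ne_of_mem_erase hc'
    simp [flipAt, Function.update_of_ne hne]
  rw [h1]
  have h2 : flipAt k c c = !k c := by simp [flipAt]
  rw [h2]
  cases hi : i c <;> cases hk : k c <;> simp <;> ring

theorem sum_ham_flipAt (i k : Fin n → Bool) :
    ∑ c, ham i (flipAt k c) = (n : ℝ) * ham i k + (n : ℝ) - 2 * ham i k := by
  have h1 : ∀ c : Fin n, ham i (flipAt k c)
      = ham i k + (1 - 2 * (if i c ≠ k c then (1 : ℝ) else 0)) := by
    intro c
    rw [ham_flipAt]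
    by_cases h : i c = k c
    · simp [h]
    · simp [h]
      norm_num
  rw [sum_congr rfl (fun c _ => h1 c), sum_add_distrib, sum_sub_distrib, ← mul_sum]
  simp only [sum_const, card_univ, Fintype.card_fin, nsmul_eq_mul, mul_one]
  unfold ham
  ring

theorem walk_ham (hn : 0 < n) (i k : Fin n → Bool) :
    ∑ j, walk n k j * ham i j = (1 - 2 / (n : ℝ)) * ham i k + 1 := by
  rw [walk_sum, sum_ham_flipAt]
  have hn' : (n : ℝ) ≠ 0 := by
    have : (0 : ℝ) < (n : ℝ) := by exact_mod_cast hn
    exact this.ne'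
  field_simp
  ring

theorem walk_row (hn : 0 < n) (k : Fin n → Bool) : ∑ j, walk n k j = 1 := by
  have h := walk_sum (fun _ => (1 : ℝ)) k
  simp only [mul_one] at h
  rw [h]
  have hn' : (n : ℝ) ≠ 0 := by
    have : (0 : ℝ) < (n : ℝ) := by exact_mod_cast hn
    exact this.ne'
  simp only [sum_const, card_univ, Fintype.card_fin, nsmul_eq_mul, mul_one]
  field_simp

theorem walk_pow_nonneg (t : ℕ) (i j : Fin n → Bool) : 0 ≤ (walk n ^ t) i j := by
  induction t generalizing i j with
  | zero =>
    rw [pow_zero, Matrix.one_apply]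
    split_ifs <;> norm_num
  | succ t ih =>
    rw [pow_succ, Matrix.mul_apply]
    exact sum_nonneg (fun m _ => mul_nonneg (ih i m) (walk_nonneg m j))

theorem walk_pow_row (hn : 0 < n) (t : ℕ) (i : Fin n → Bool) : ∑ j, (walk n ^ t) i j = 1 := by
  induction t with
  | zero =>
    simp [Matrix.one_apply]
  | succ t ih =>
    calc ∑ j, (walk n ^ (t + 1)) i j = ∑ j, ∑ m, (walk n ^ t) i m * walk n m j := by
          apply sum_congr rfl
          intro j _
          rw [pow_succ, Matrix.mul_apply]
      _ = ∑ m, ∑ j, (walk n ^ t) i m * walk n m j := sum_comm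
      _ = ∑ m, (walk n ^ t) i m := by
          apply sum_congr rfl
          intro m _
          rw [← mul_sum, walk_row hn, mul_one]
      _ = 1 := ih

/-- expected Hamming distance from the start after `t` steps -/
noncomputable def expDist (n t : ℕ) (i : Fin n → Bool) : ℝ := ∑ j, (walk n ^ t) i j * ham i j

theorem expDist_zero (i : Fin n → Bool) : expDist n 0 i = 0 := by
  unfold expDist
  rw [pow_zero]
  apply sum_eq_zero
  intro j _
  rw [Matrix.one_apply]
  split_ifs with h
  · rw [h, ham_self, mul_zero]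
  · rw [zero_mul]

theorem expDist_succ (hn : 0 < n) (t : ℕ) (i : Fin n → Bool) :
    expDist n (t + 1) i = (1 - 2 / (n : ℝ)) * expDist n t i + 1 := by
  unfold expDist
  calc ∑ j, (walk n ^ (t + 1)) i j * ham i j
      = ∑ j, ∑ m, (walk n ^ t) i m * (walk n m j * ham i j) := by
        apply sum_congr rfl
        intro j _
        rw [pow_succ, Matrix.mul_apply, sum_mul]
        apply sum_congr rfl
        intro m _
        ring
    _ = ∑ m, ∑ j, (walk n ^ t) i m * (walk n m j * ham i j) := sum_comm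
    _ = ∑ m, (walk n ^ t) i m * ((1 - 2 / (n : ℝ)) * ham i m + 1) := by
        apply sum_congr rfl
        intro m _
        rw [← mul_sum, walk_ham hn]
    _ = (1 - 2 / (n : ℝ)) * ∑ m, (walk n ^ t) i m * ham i m + ∑ m, (walk n ^ t) i m := by
        rw [mul_sum, ← sum_add_distrib]
        apply sum_congr rfl
        intro m _
        ring
    _ = (1 - 2 / (n : ℝ)) * ∑ j, (walk n ^ t) i j * ham i j + 1 := by
        rw [walk_pow_row hn]

theorem expDist_nonneg (t : ℕ) (i : Fin n → Bool) : 0 ≤ expDist n t i := by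
  unfold expDist
  exact sum_nonneg (fun j _ => mul_nonneg (walk_pow_nonneg t i j) (ham_nonneg i j))

theorem expDist_le (hn : 2 ≤ n) (t : ℕ) (i : Fin n → Bool) : expDist n t i ≤ (t : ℝ) := by
  have hn2 : (2 : ℝ) ≤ (n : ℝ) := by exact_mod_cast hn
  have hq : 0 ≤ 1 - 2 / (n : ℝ) := by
    rw [sub_nonneg, div_le_one (by linarith)]
    exact hn2
  have hq1 : 1 - 2 / (n : ℝ) ≤ 1 := by
    have : 0 ≤ 2 / (n : ℝ) := by positivity
    linarith
  induction t with
  | zero => rw [expDist_zero]; simp
  | succ t ih =>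
    rw [expDist_succ (by omega)]
    push_cast
    have h0 := expDist_nonneg t i
    nlinarith

theorem expDist_ge (hn : 2 ≤ n) (t : ℕ) (i : Fin n → Bool) :
    (t : ℝ) - (t : ℝ) * ((t : ℝ) - 1) / (n : ℝ) ≤ expDist n t i := by
  have hn2 : (2 : ℝ) ≤ (n : ℝ) := by exact_mod_cast hn
  have hn0 : (0 : ℝ) < (n : ℝ) := by linarith
  induction t with
  | zero => rw [expDist_zero]; simp
  | succ t ih =>
    rw [expDist_succ (by omega)]
    have hle := expDist_le hn t i
    push_cast
    have e1 : (1 - 2 / (n : ℝ)) * expDist n t i + 1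
        = expDist n t i + 1 - 2 * expDist n t i / (n : ℝ) := by ring
    rw [e1]
    have e2 : 2 * expDist n t i / (n : ℝ) ≤ 2 * (t : ℝ) / (n : ℝ) := by
      apply div_le_div_of_nonneg_right _ hn0.le
      linarith
    have e3 : ((t : ℝ) + 1) - ((t : ℝ) + 1) * ((t : ℝ) + 1 - 1) / (n : ℝ)
        = ((t : ℝ) - (t : ℝ) * ((t : ℝ) - 1) / (n : ℝ)) + 1 - 2 * (t : ℝ) / (n : ℝ) := by
      field_simp
      ring
    rw [e3]
    linarith

theorem jensen_expDist {p : ℝ} (hp : 1 ≤ p) (hn : 0 < n) (t : ℕ) (i : Fin n → Bool) :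
    (expDist n t i) ^ p ≤ ∑ j, (walk n ^ t) i j * (ham i j) ^ p := by
  have h := (convexOn_rpow hp).map_sum_le (t := univ) (w := fun j => (walk n ^ t) i j)
    (p := fun j => ham i j)
    (fun j _ => walk_pow_nonneg t i j) (walk_pow_row hn t i) (fun j _ => ham_nonneg i j)
  simpa [expDist, smul_eq_mul] using h

end cube

theorem exists_time (C p : ℝ) (hp : 1 < p) :
    ∃ t : ℕ, 1 ≤ t ∧ C * (t : ℝ) < ((t : ℝ) / 2) ^ p := by
  have hp1 : 0 < p - 1 := by linarith
  have h2p : (0 : ℝ) < 2 ^ p := Real.rpow_pos_of_pos (by norm_num) p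
  have hA1 : 1 ≤ 2 ^ p * |C| + 1 := by
    have : 0 ≤ (2 : ℝ) ^ p * |C| := mul_nonneg h2p.le (abs_nonneg C)
    linarith
  have hA0 : 0 < 2 ^ p * |C| + 1 := by linarith
  obtain ⟨t, ht⟩ := exists_nat_gt ((2 ^ p * |C| + 1) ^ (1 / (p - 1)))
  have hApos : 0 < (2 ^ p * |C| + 1) ^ (1 / (p - 1)) := Real.rpow_pos_of_pos hA0 _
  have htpos : (0 : ℝ) < (t : ℝ) := lt_trans hApos ht
  have ht1 : 1 ≤ t := by
    have : 0 < t := by exact_mod_cast htpos
    omega
  refine ⟨t, ht1, ?_⟩
  have h1 : 2 ^ p * |C| + 1 < (t : ℝ) ^ (p - 1) := by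
    have h := Real.rpow_lt_rpow hApos.le ht hp1
    rwa [← Real.rpow_mul hA0.le, one_div_mul_cancel hp1.ne', Real.rpow_one] at h
  have h2 : (t : ℝ) ^ p = (t : ℝ) ^ (p - 1) * (t : ℝ) := by
    rw [Real.rpow_sub_one htpos.ne']
    field_simp
  have h3 : ((t : ℝ) / 2) ^ p = (t : ℝ) ^ p / 2 ^ p := Real.div_rpow htpos.le (by norm_num) p
  rw [h3, h2, lt_div_iff₀ h2p]
  have h4 : C * 2 ^ p < (t : ℝ) ^ (p - 1) := by
    have : C * 2 ^ p ≤ 2 ^ p * |C| := by
      rw [mul_comm]
      exact mul_le_mul_of_nonneg_left (le_abs_self C) h2p.le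
    linarith
  have h5 := mul_lt_mul_of_pos_right h4 htpos
  linarith

/-- A normed space that contains the spaces `l_1^n` uniformly (for every `n` there is a linear
map `T` from `R^n` into `X` with `∑ |v i| ≤ ‖T v‖ ≤ B * ∑ |v i|`) does not have Markov type `p`
for any `p > 1`. -/
theorem result (X : Type*) [NormedAddCommGroup X] [NormedSpace ℝ X] (B : ℝ)
    (hX : ∀ n : ℕ, ∃ T : (Fin n → ℝ) →ₗ[ℝ] X,
      ∀ v : Fin n → ℝ, ∑ i, |v i| ≤ ‖T v‖ ∧ ‖T v‖ ≤ B * ∑ i, |v i|)
    (p : ℝ) (hp : 1 < p) : ¬ HasMarkovType X p := by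
  rintro ⟨K, hK0, hK⟩
  obtain ⟨t, ht1, htC⟩ := exists_time (K ^ p * B ^ p) p hp
  have hp0 : 0 ≤ p := by linarith
  have hp1 : 1 ≤ p := hp.le
  obtain ⟨n, hn⟩ : ∃ n : ℕ, n = 2 * t := ⟨_, rfl⟩
  have hn2 : 2 ≤ n := by omega
  have hn0 : 0 < n := by omega
  have hnR : (n : ℝ) = 2 * (t : ℝ) := by
    rw [hn]
    push_cast
    ring
  have ht0 : (0 : ℝ) < (t : ℝ) := by
    have : 0 < t := by omega
    exact_mod_cast this
  obtain ⟨T, hT⟩ := hX n
  let f : (Fin n → Bool) → X := fun i => T (fun c => if i c then (1 : ℝ) else 0)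
  have hdiff : ∀ i j : Fin n → Bool, ham i j ≤ ‖f j - f i‖ ∧ ‖f j - f i‖ ≤ B * ham i j := by
    intro i j
    have h := hT ((fun c => if j c then (1 : ℝ) else 0) - (fun c => if i c then (1 : ℝ) else 0))
    have e : ∑ c, |((fun c => if j c then (1 : ℝ) else 0)
        - (fun c => if i c then (1 : ℝ) else 0)) c| = ham i j := by
      unfold ham
      apply sum_congr rfl
      intro c _
      simp only [Pi.sub_apply]
      cases hi : i c <;> cases hj : j c <;> simp
    rw [e, map_sub] at h
    exact h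
  let π : (Fin n → Bool) → ℝ := fun _ => 1 / (2 : ℝ) ^ n
  have hπ0 : ∀ i, 0 ≤ π i := fun i => by positivity
  have hπ1 : ∑ i, π i = 1 := by
    simp only [π, sum_const, card_univ, Fintype.card_fun, Fintype.card_bool, Fintype.card_fin,
      nsmul_eq_mul]
    push_cast
    field_simp
  have hrev : ∀ i j, π i * walk n i j = π j * walk n j i := by
    intro i j
    simp only [π]
    rw [walk_symm]
  have key := hK (Fin n → Bool) π (walk n) hπ0 hπ1 walk_nonneg (walk_row hn0) hrev f t ht1
  have hL : ((t : ℝ) / 2) ^ p ≤ ∑ i, ∑ j, π i * (walk n ^ t) i j * ‖f j - f i‖ ^ p := by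
    calc ((t : ℝ) / 2) ^ p = ∑ i, π i * ((t : ℝ) / 2) ^ p := by rw [← sum_mul, hπ1, one_mul]
      _ ≤ ∑ i, π i * ∑ j, (walk n ^ t) i j * ‖f j - f i‖ ^ p := by
          apply sum_le_sum
          intro i _
          apply mul_le_mul_of_nonneg_left _ (hπ0 i)
          calc ((t : ℝ) / 2) ^ p ≤ (expDist n t i) ^ p := by
                apply Real.rpow_le_rpow (by positivity) _ hp0
                have h := expDist_ge hn2 t i
                have e : (t : ℝ) - (t : ℝ) * ((t : ℝ) - 1) / (n : ℝ) = ((t : ℝ) + 1) / 2 := by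
                  rw [hnR]
                  field_simp
                  ring
                rw [e] at h
                linarith
            _ ≤ ∑ j, (walk n ^ t) i j * (ham i j) ^ p := jensen_expDist hp1 hn0 t i
            _ ≤ ∑ j, (walk n ^ t) i j * ‖f j - f i‖ ^ p := by
                apply sum_le_sum
                intro j _
                apply mul_le_mul_of_nonneg_left _ (walk_pow_nonneg t i j)
                exact Real.rpow_le_rpow (ham_nonneg i j) (hdiff i j).1 hp0
      _ = ∑ i, ∑ j, π i * (walk n ^ t) i j * ‖f j - f i‖ ^ p := by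
          apply sum_congr rfl
          intro i _
          rw [mul_sum]
          apply sum_congr rfl
          intro j _
          ring
  have hR : ∑ i, ∑ j, π i * walk n i j * ‖f j - f i‖ ^ p ≤ B ^ p := by
    calc ∑ i, ∑ j, π i * walk n i j * ‖f j - f i‖ ^ p
        = ∑ i, π i * ∑ j, walk n i j * ‖f j - f i‖ ^ p := by
          apply sum_congr rfl
          intro i _
          rw [mul_sum]
          apply sum_congr rfl
          intro j _
          ring
      _ ≤ ∑ i, π i * B ^ p := by
          apply sum_le_sum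
          intro i _
          apply mul_le_mul_of_nonneg_left _ (hπ0 i)
          rw [walk_sum (fun j => ‖f j - f i‖ ^ p) i]
          have hc : ∀ c, ‖f (flipAt i c) - f i‖ ^ p ≤ B ^ p := by
            intro c
            apply Real.rpow_le_rpow (norm_nonneg _) _ hp0
            have h := (hdiff i (flipAt i c)).2
            rw [ham_flipAt, ham_self] at h
            simpa using h
          have hnpos : (0 : ℝ) < (n : ℝ) := by exact_mod_cast hn0
          calc (1 / (n : ℝ)) * ∑ c, ‖f (flipAt i c) - f i‖ ^ p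
              ≤ (1 / (n : ℝ)) * ∑ _c : Fin n, B ^ p :=
                mul_le_mul_of_nonneg_left (sum_le_sum (fun c _ => hc c)) (by positivity)
            _ = B ^ p := by
                simp only [sum_const, card_univ, Fintype.card_fin, nsmul_eq_mul]
                field_simp
      _ = B ^ p := by rw [← sum_mul, hπ1, one_mul]
  have hKp : 0 ≤ K ^ p := Real.rpow_nonneg hK0 p
  have hfin : ((t : ℝ) / 2) ^ p ≤ K ^ p * B ^ p * (t : ℝ) := by
    calc ((t : ℝ) / 2) ^ p
        ≤ ∑ i, ∑ j, π i * (walk n ^ t) i j * ‖f j - f i‖ ^ p := hL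
      _ ≤ K ^ p * (t : ℝ) * ∑ i, ∑ j, π i * walk n i j * ‖f j - f i‖ ^ p := key
      _ ≤ K ^ p * (t : ℝ) * B ^ p := mul_le_mul_of_nonneg_left hR (by positivity)
      _ = K ^ p * B ^ p * (t : ℝ) := by ring
  linarith

end Vale.Agent.Results.P125.A_ContainsL1Uniformly
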