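import Mathlib
import Vale.Agent.Results.P125.A_ContainsL1Uniformly

open scoped ENNReal

namespace Vale.Agent.Results.P125.B_SequenceSpaceL1

open Finset

/-- the coordinate embedding of `R^n` into the sequence space `l_1` -/
noncomputable def coordEmb (n : ℕ) : (Fin n → ℝ) →ₗ[ℝ] lp (fun _ : ℕ => ℝ) 1 :=
  ∑ i : Fin n, (lp.lsingle (𝕜 := ℝ) (E := fun _ : ℕ => ℝ) 1 (i : ℕ)) ∘ₗ (LinearMap.proj i)

theorem coordEmb_norm (n : ℕ) (v : Fin n → ℝ) : ‖coordEmb n v‖ = ∑ i, |v i| := by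
  have h1 : coordEmb n v = ∑ k ∈ range n,
      lp.single (E := fun _ : ℕ => ℝ) 1 k (if h : k < n then v ⟨k, h⟩ else 0) := by
    rw [← Fin.sum_univ_eq_sum_range
      (fun k => lp.single (E := fun _ : ℕ => ℝ) 1 k (if h : k < n then v ⟨k, h⟩ else 0)) n]
    simp [coordEmb, LinearMap.sum_apply]
  have h2 := lp.norm_sum_single (E := fun _ : ℕ => ℝ) (p := 1) (by simp)
    (fun k => if h : k < n then v ⟨k, h⟩ else 0) (range n)
  rw [← h1] at h2
  simp only [ENNReal.toReal_one, Real.rpow_one] at h2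
  rw [h2, ← Fin.sum_univ_eq_sum_range (fun k => ‖if h : k < n then v ⟨k, h⟩ else 0‖) n]
  apply sum_congr rfl
  intro i _
  simp [Real.norm_eq_abs]

/-- The real sequence space `l_1` does not have Markov type `p` for any `p > 1`. -/
theorem result (p : ℝ) (hp : 1 < p) :
    ¬ A_ContainsL1Uniformly.HasMarkovType (lp (fun _ : ℕ => ℝ) 1) p := by
  apply A_ContainsL1Uniformly.result (lp (fun _ : ℕ => ℝ) 1) 1 _ p hp
  intro n
  refine ⟨coordEmb n, fun v => ?_⟩
  rw [coordEmb_norm, one_mul]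
  exact ⟨le_rfl, le_rfl⟩

end Vale.Agent.Results.P125.B_SequenceSpaceL1
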