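import Mathlib
import Vale.Agent.Results.P125.A_ContainsL1Uniformly

namespace Vale.Agent.Results.P125.C_ImpliesRademacherType

open Finset
open A_ContainsL1Uniformly

section
variable {X : Type*} [NormedAddCommGroup X] [NormedSpace ℝ X] {n : ℕ}

/-- the sign attached to a Boolean -/
def sgn (b : Bool) : ℝ := if b then 1 else -1

/-- the Rademacher sum of the vectors `x i` with the signs given by `ε` -/
def radSum (x : Fin n → X) (ε : Fin n → Bool) : X := ∑ c, sgn (ε c) • x c

theorem walk_sum_smul (g : (Fin n → Bool) → X) (k : Fin n → Bool) :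
    ∑ j, walk n k j • g j = (1 / (n : ℝ)) • ∑ c, g (flipAt k c) := by
  calc ∑ j, walk n k j • g j
      = ∑ j, ∑ c, (1 / (n : ℝ)) • (if j = flipAt k c then g j else 0) := by
        apply sum_congr rfl
        intro j _
        unfold walk
        rw [mul_smul, sum_smul, smul_sum]
        apply sum_congr rfl
        intro c _
        split_ifs <;> simp
    _ = ∑ c, ∑ j, (1 / (n : ℝ)) • (if j = flipAt k c then g j else 0) := sum_comm
    _ = ∑ c, (1 / (n : ℝ)) • g (flipAt k c) := by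
        apply sum_congr rfl
        intro c _
        rw [← smul_sum, sum_ite_eq']
        simp
    _ = (1 / (n : ℝ)) • ∑ c, g (flipAt k c) := by rw [smul_sum]

theorem sgn_not (b : Bool) : sgn (!b) = - sgn b := by
  cases b <;> simp [sgn]

theorem abs_sgn (b : Bool) : |sgn b| = 1 := by
  cases b <;> simp [sgn]

theorem radSum_flipAt (x : Fin n → X) (k : Fin n → Bool) (c : Fin n) :
    radSum x (flipAt k c) = radSum x k - (2 * sgn (k c)) • x c := by
  unfold radSum
  rw [← add_sum_erase univ (fun c' => sgn (flipAt k c c') • x c') (mem_univ c),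
    ← add_sum_erase univ (fun c' => sgn (k c') • x c') (mem_univ c)]
  have h1 : ∑ c' ∈ univ.erase c, sgn (flipAt k c c') • x c'
      = ∑ c' ∈ univ.erase c, sgn (k c') • x c' := by
    apply sum_congr rfl
    intro c' hc'
    have hne : c' ≠ c := ne_of_mem_erase hc'
    simp [flipAt, Function.update_of_ne hne]
  rw [h1]
  have h2 : flipAt k c c = !k c := by simp [flipAt]
  rw [h2, sgn_not, two_mul, add_smul, neg_smul]
  abel

theorem walk_radSum (hn : 0 < n) (x : Fin n → X) (k : Fin n → Bool) :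
    ∑ j, walk n k j • radSum x j = (1 - 2 / (n : ℝ)) • radSum x k := by
  rw [walk_sum_smul]
  have h : ∑ c, radSum x (flipAt k c) = (n : ℝ) • radSum x k - (2 : ℝ) • radSum x k := by
    rw [sum_congr rfl (fun c _ => radSum_flipAt x k c), sum_sub_distrib]
    congr 1
    · rw [sum_const, card_univ, Fintype.card_fin, Nat.cast_smul_eq_nsmul]
    · unfold radSum
      rw [smul_sum]
      apply sum_congr rfl
      intro c _
      rw [mul_smul]
  have hn' : (n : ℝ) ≠ 0 := by
    have : (0 : ℝ) < (n : ℝ) := by exact_mod_cast hn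
    exact this.ne'
  rw [h, ← sub_smul, smul_smul]
  congr 1
  field_simp

theorem walk_pow_radSum (hn : 0 < n) (x : Fin n → X) (t : ℕ) (k : Fin n → Bool) :
    ∑ j, (walk n ^ t) k j • radSum x j = ((1 - 2 / (n : ℝ)) ^ t) • radSum x k := by
  induction t generalizing k with
  | zero =>
    simp [Matrix.one_apply]
  | succ t ih =>
    calc ∑ j, (walk n ^ (t + 1)) k j • radSum x j
        = ∑ j, ∑ m, (walk n ^ t) k m • (walk n m j • radSum x j) := by
          apply sum_congr rfl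
          intro j _
          rw [pow_succ, Matrix.mul_apply, sum_smul]
          apply sum_congr rfl
          intro m _
          rw [mul_smul]
      _ = ∑ m, ∑ j, (walk n ^ t) k m • (walk n m j • radSum x j) := sum_comm
      _ = ∑ m, (walk n ^ t) k m • ((1 - 2 / (n : ℝ)) • radSum x m) := by
          apply sum_congr rfl
          intro m _
          rw [← smul_sum, walk_radSum hn]
      _ = (1 - 2 / (n : ℝ)) • ∑ m, (walk n ^ t) k m • radSum x m := by
          rw [smul_sum]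
          apply sum_congr rfl
          intro m _
          rw [smul_comm]
      _ = ((1 - 2 / (n : ℝ)) ^ (t + 1)) • radSum x k := by
          rw [ih, smul_smul, pow_succ]
          congr 1
          ring

theorem norm_rpow_sum_le {p : ℝ} (hp : 1 ≤ p) {ι : Type*} (s : Finset ι) (w : ι → ℝ)
    (v : ι → X) (hw : ∀ j ∈ s, 0 ≤ w j) (hw1 : ∑ j ∈ s, w j = 1) :
    ‖∑ j ∈ s, w j • v j‖ ^ p ≤ ∑ j ∈ s, w j * ‖v j‖ ^ p := by
  have h1 : ‖∑ j ∈ s, w j • v j‖ ≤ ∑ j ∈ s, w j * ‖v j‖ := by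
    refine le_trans (norm_sum_le _ _) (le_of_eq ?_)
    apply sum_congr rfl
    intro j hj
    rw [norm_smul, Real.norm_eq_abs, abs_of_nonneg (hw j hj)]
  have h2 := (convexOn_rpow hp).map_sum_le (t := s) (w := w) (p := fun j => ‖v j‖) hw hw1
    (fun j _ => norm_nonneg _)
  simp only [smul_eq_mul] at h2
  exact le_trans (Real.rpow_le_rpow (norm_nonneg _) h1 (by linarith)) h2

theorem lam_bound (hn : 0 < n) : 2 / 3 ≤ |(1 - 2 / (n : ℝ)) ^ n - 1| := by
  rcases Nat.lt_or_ge n 2 with h | h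
  · have h1 : n = 1 := by omega
    subst h1
    norm_num
  · have hn2 : (2 : ℝ) ≤ (n : ℝ) := by exact_mod_cast h
    have hn0 : (0 : ℝ) < (n : ℝ) := by linarith
    have hd0 : 0 ≤ 2 / (n : ℝ) := by positivity
    have hl0 : 0 ≤ 1 - 2 / (n : ℝ) := by
      rw [sub_nonneg, div_le_one hn0]
      exact hn2
    have hl1 : (1 - 2 / (n : ℝ)) * (1 + 2 / (n : ℝ)) ≤ 1 := by
      nlinarith [sq_nonneg (2 / (n : ℝ))]
    have hB : 1 + (n : ℝ) * (2 / (n : ℝ)) ≤ (1 + 2 / (n : ℝ)) ^ n :=
      one_add_mul_le_pow (by linarith) n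
    have hB3 : (3 : ℝ) ≤ (1 + 2 / (n : ℝ)) ^ n := by
      rw [mul_div_cancel₀ _ hn0.ne'] at hB
      linarith
    have hprod : (1 - 2 / (n : ℝ)) ^ n * (1 + 2 / (n : ℝ)) ^ n ≤ 1 := by
      rw [← mul_pow]
      exact pow_le_one₀ (mul_nonneg hl0 (by linarith)) hl1
    have hpos : 0 ≤ (1 - 2 / (n : ℝ)) ^ n := pow_nonneg hl0 n
    have hlam : (1 - 2 / (n : ℝ)) ^ n ≤ 1 / 3 := by
      nlinarith [mul_le_mul_of_nonneg_left hB3 hpos]
    rw [abs_sub_comm, abs_of_nonneg (by linarith)]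
    linarith

/-- after `t` steps the walk moves the Rademacher sum by at least `|λ^t - 1|` times its norm,
in the `p`-th mean -/
theorem step_lower {p : ℝ} (hp : 1 ≤ p) (hn : 0 < n) (x : Fin n → X) (t : ℕ)
    (k : Fin n → Bool) :
    |(1 - 2 / (n : ℝ)) ^ t - 1| ^ p * ‖radSum x k‖ ^ p
      ≤ ∑ j, (walk n ^ t) k j * ‖radSum x j - radSum x k‖ ^ p := by
  have h1 : ∑ j, (walk n ^ t) k j • (radSum x j - radSum x k)
      = ((1 - 2 / (n : ℝ)) ^ t - 1) • radSum x k := by
    simp only [smul_sub]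
    rw [sum_sub_distrib, walk_pow_radSum hn, ← sum_smul, walk_pow_row hn, one_smul, sub_smul,
      one_smul]
  have h2 := norm_rpow_sum_le hp univ (fun j => (walk n ^ t) k j)
    (fun j => radSum x j - radSum x k) (fun j _ => walk_pow_nonneg t k j) (walk_pow_row hn t k)
  rw [h1, norm_smul, Real.norm_eq_abs, Real.mul_rpow (abs_nonneg _) (norm_nonneg _)] at h2
  exact h2

end

/-- Markov type `p` implies Rademacher type `p`: if a real normed space `X` has Markov type
`p ≥ 1`, then there is a constant `T` such that for every finite family `x_1, …, x_n` in `X`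
the average of `‖∑ ε_i x_i‖ ^ p` over all choices of signs `ε_i = ±1` is at most
`T ^ p * ∑ ‖x_i‖ ^ p`. (The signs are coded by Booleans: `true` is `+1`, `false` is `-1`.) -/
theorem result (X : Type*) [NormedAddCommGroup X] [NormedSpace ℝ X] (p : ℝ) (hp : 1 ≤ p)
    (h : HasMarkovType X p) :
    ∃ T : ℝ, 0 ≤ T ∧ ∀ (n : ℕ) (x : Fin n → X),
      (1 / (2 : ℝ) ^ n) * ∑ ε : Fin n → Bool, ‖∑ i, (if ε i then (1 : ℝ) else -1) • x i‖ ^ p
        ≤ T ^ p * ∑ i, ‖x i‖ ^ p := by
  obtain ⟨K, hK0, hK⟩ := h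
  refine ⟨3 * K, by positivity, ?_⟩
  intro n x
  have hp0 : 0 ≤ p := by linarith
  have hpne : p ≠ 0 := by linarith
  rcases Nat.eq_zero_or_pos n with hn | hn
  · subst hn
    simp [Real.zero_rpow hpne]
  have hnR : (0 : ℝ) < (n : ℝ) := by exact_mod_cast hn
  let π : (Fin n → Bool) → ℝ := fun _ => 1 / (2 : ℝ) ^ n
  have hπ0 : ∀ i, 0 ≤ π i := fun i => by positivity
  have hπ1 : ∑ i, π i = 1 := by
    simp only [π, sum_const, card_univ, Fintype.card_fun, Fintype.card_bool, Fintype.card_fin,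
      nsmul_eq_mul]
    push_cast
    field_simp
  have hrev : ∀ i j, π i * walk n i j = π j * walk n j i := by
    intro i j
    simp only [π]
    rw [walk_symm]
  have key := hK (Fin n → Bool) π (walk n) hπ0 hπ1 walk_nonneg (walk_row hn) hrev
    (radSum x) n hn
  -- the left side of the statement
  have hLHS : (1 / (2 : ℝ) ^ n) * ∑ ε : Fin n → Bool,
      ‖∑ i, (if ε i then (1 : ℝ) else -1) • x i‖ ^ p = ∑ i, π i * ‖radSum x i‖ ^ p := by
    rw [mul_sum]
    rfl
  -- lower bound for the left side of the Markov type inequality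
  have hL : (2 / 3 : ℝ) ^ p * ∑ i, π i * ‖radSum x i‖ ^ p
      ≤ ∑ i, ∑ j, π i * (walk n ^ n) i j * ‖radSum x j - radSum x i‖ ^ p := by
    rw [mul_sum]
    apply sum_le_sum
    intro i _
    have h1 := step_lower hp hn x n i
    have h2 : (2 / 3 : ℝ) ^ p ≤ |(1 - 2 / (n : ℝ)) ^ n - 1| ^ p :=
      Real.rpow_le_rpow (by norm_num) (lam_bound hn) hp0
    have h3 : (2 / 3 : ℝ) ^ p * ‖radSum x i‖ ^ p
        ≤ ∑ j, (walk n ^ n) i j * ‖radSum x j - radSum x i‖ ^ p :=
      le_trans (mul_le_mul_of_nonneg_right h2 (Real.rpow_nonneg (norm_nonneg _) p)) h1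
    calc (2 / 3 : ℝ) ^ p * (π i * ‖radSum x i‖ ^ p)
        = π i * ((2 / 3 : ℝ) ^ p * ‖radSum x i‖ ^ p) := by ring
      _ ≤ π i * ∑ j, (walk n ^ n) i j * ‖radSum x j - radSum x i‖ ^ p :=
          mul_le_mul_of_nonneg_left h3 (hπ0 i)
      _ = ∑ j, π i * (walk n ^ n) i j * ‖radSum x j - radSum x i‖ ^ p := by
          rw [mul_sum]
          apply sum_congr rfl
          intro j _
          ring
  -- the right side of the Markov type inequality
  have hR : ∑ i, ∑ j, π i * walk n i j * ‖radSum x j - radSum x i‖ ^ p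
      = (1 / (n : ℝ)) * ((2 : ℝ) ^ p * ∑ c, ‖x c‖ ^ p) := by
    have hone : ∀ i : Fin n → Bool, ∑ j, walk n i j * ‖radSum x j - radSum x i‖ ^ p
        = (1 / (n : ℝ)) * ((2 : ℝ) ^ p * ∑ c, ‖x c‖ ^ p) := by
      intro i
      rw [walk_sum (fun j => ‖radSum x j - radSum x i‖ ^ p) i]
      congr 1
      rw [mul_sum]
      apply sum_congr rfl
      intro c _
      rw [radSum_flipAt, sub_sub_cancel_left, norm_neg, norm_smul, Real.norm_eq_abs, abs_mul,
        abs_sgn, mul_one, abs_of_pos (by norm_num : (0 : ℝ) < 2),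
        Real.mul_rpow (by norm_num) (norm_nonneg _)]
    calc ∑ i, ∑ j, π i * walk n i j * ‖radSum x j - radSum x i‖ ^ p
        = ∑ i, π i * ∑ j, walk n i j * ‖radSum x j - radSum x i‖ ^ p := by
          apply sum_congr rfl
          intro i _
          rw [mul_sum]
          apply sum_congr rfl
          intro j _
          ring
      _ = ∑ i, π i * ((1 / (n : ℝ)) * ((2 : ℝ) ^ p * ∑ c, ‖x c‖ ^ p)) := by
          apply sum_congr rfl
          intro i _
          rw [hone i]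
      _ = (1 / (n : ℝ)) * ((2 : ℝ) ^ p * ∑ c, ‖x c‖ ^ p) := by
          rw [← sum_mul, hπ1, one_mul]
  rw [hR] at key
  rw [hLHS]
  have hS0 : 0 ≤ ∑ c, ‖x c‖ ^ p := sum_nonneg (fun c _ => Real.rpow_nonneg (norm_nonneg _) p)
  have hKp : 0 ≤ K ^ p := Real.rpow_nonneg hK0 p
  have h23 : (0 : ℝ) < (2 / 3 : ℝ) ^ p := Real.rpow_pos_of_pos (by norm_num) p
  have hchain : (2 / 3 : ℝ) ^ p * ∑ i, π i * ‖radSum x i‖ ^ p
      ≤ K ^ p * ((2 : ℝ) ^ p * ∑ c, ‖x c‖ ^ p) := by
    refine le_trans hL (le_trans key (le_of_eq ?_))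
    field_simp
  have hT : (3 * K) ^ p = (2 / 3 : ℝ)⁻¹ ^ p * (K ^ p * (2 : ℝ) ^ p) := by
    rw [← Real.mul_rpow hK0 (by norm_num), ← Real.mul_rpow (by norm_num) (by positivity)]
    congr 1
    ring
  rw [hT, Real.inv_rpow (by norm_num)]
  rw [mul_assoc, inv_mul_eq_div, le_div_iff₀ h23]
  calc (∑ i, π i * ‖radSum x i‖ ^ p) * (2 / 3 : ℝ) ^ p
      = (2 / 3 : ℝ) ^ p * ∑ i, π i * ‖radSum x i‖ ^ p := by ring
    _ ≤ K ^ p * ((2 : ℝ) ^ p * ∑ c, ‖x c‖ ^ p) := hchain
    _ = K ^ p * (2 : ℝ) ^ p * ∑ c, ‖x c‖ ^ p := by ring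

end Vale.Agent.Results.P125.C_ImpliesRademacherType
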